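import Mathlib

/-!
K1 (second author helper543): the spectral radius of a completely positive map
`X ↦ ∑ a, A a * X * A a` (symmetric `A a`) on arbitrary real matrices is controlled by its
Rayleigh quotients on positive semidefinite matrices.  No polar decomposition, no eigenvalues:
for `P` positive definite and `X = P * C` one has
`tr (P M P M) ≥ 0` with `M = A ∓ C A Cᵀ`.
-/

namespace Vale.Agent.P254.H543

open Matrix
open scoped ComplexOrder MatrixOrder

variable {n : Type*} [Fintype n] [DecidableEq n]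

lemma tr_mul_nonneg {A B : Matrix n n ℝ} (hA : A.PosSemidef) (hB : B.PosSemidef) :
    0 ≤ (A * B).trace := by
  obtain ⟨C, rfl⟩ := (CStarAlgebra.nonneg_iff_eq_star_mul_self (a := A)).1 hA.nonneg
  rw [star_eq_conjTranspose, Matrix.mul_assoc, Matrix.trace_mul_comm]
  exact (hB.mul_mul_conjTranspose_same C).trace_nonneg

lemma tr_PMPM_nonneg {P M : Matrix n n ℝ} (hP : P.PosSemidef) (hM : Mᵀ = M) :
    0 ≤ (P * M * P * M).trace := by
  have h1 : (M * P * M).PosSemidef := by
    have := hP.mul_mul_conjTranspose_same M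
    rwa [conjTranspose_eq_transpose_of_trivial, hM] at this
  have h2 := tr_mul_nonneg hP h1
  have h3 : P * (M * P * M) = P * M * P * M := by simp only [Matrix.mul_assoc]
  rwa [h3] at h2

/-- One matrix: `2 |tr (A X A Xᵀ)| ≤ tr (A P A P) + tr (A Q A Q)` for `X = P * C`,
`Q = Cᵀ * P * C`. -/
lemma two_mul_abs_le {P C A : Matrix n n ℝ} (hP : P.PosSemidef) (hA : Aᵀ = A) :
    2 * |(A * (P * C) * A * (P * C)ᵀ).trace| ≤
      (A * P * A * P).trace + (A * (Cᵀ * P * C) * A * (Cᵀ * P * C)).trace := by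
  have hPt : Pᵀ = P := by
    have := hP.1
    rwa [IsHermitian, conjTranspose_eq_transpose_of_trivial] at this
  have hBt : (C * A * Cᵀ)ᵀ = C * A * Cᵀ := by
    simp only [transpose_mul, transpose_transpose, hA, Matrix.mul_assoc]
  have e1 : (P * A * P * A).trace = (A * P * A * P).trace := by
    rw [Matrix.trace_mul_comm]
    simp only [Matrix.mul_assoc]
  have e2 : (P * A * P * (C * A * Cᵀ)).trace = (A * (P * C) * A * (P * C)ᵀ).trace := by
    rw [transpose_mul, hPt]
    have : P * A * P * (C * A * Cᵀ) = P * (A * P * C * A * Cᵀ) := by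
      simp only [Matrix.mul_assoc]
    rw [this, Matrix.trace_mul_comm]
    simp only [Matrix.mul_assoc]
  have e3 : (P * (C * A * Cᵀ) * P * A).trace = (A * (P * C) * A * (P * C)ᵀ).trace := by
    rw [transpose_mul, hPt]
    rw [Matrix.trace_mul_comm]
    simp only [Matrix.mul_assoc]
  have e4 : (P * (C * A * Cᵀ) * P * (C * A * Cᵀ)).trace =
      (A * (Cᵀ * P * C) * A * (Cᵀ * P * C)).trace := by
    have : P * (C * A * Cᵀ) * P * (C * A * Cᵀ) = (P * C) * (A * Cᵀ * P * C * A * Cᵀ) := by
      simp only [Matrix.mul_assoc]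
    rw [this, Matrix.trace_mul_comm]
    simp only [Matrix.mul_assoc]
  have hm : 0 ≤ (P * (A - C * A * Cᵀ) * P * (A - C * A * Cᵀ)).trace :=
    tr_PMPM_nonneg hP (by rw [transpose_sub, hA, hBt])
  have hp : 0 ≤ (P * (A + C * A * Cᵀ) * P * (A + C * A * Cᵀ)).trace :=
    tr_PMPM_nonneg hP (by rw [transpose_add, hA, hBt])
  have em : (P * (A - C * A * Cᵀ) * P * (A - C * A * Cᵀ)).trace =
      (P * A * P * A).trace - (P * A * P * (C * A * Cᵀ)).trace
        - (P * (C * A * Cᵀ) * P * A).trace + (P * (C * A * Cᵀ) * P * (C * A * Cᵀ)).trace := by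
    simp only [Matrix.mul_sub, Matrix.sub_mul, trace_sub]
    ring
  have ep : (P * (A + C * A * Cᵀ) * P * (A + C * A * Cᵀ)).trace =
      (P * A * P * A).trace + (P * A * P * (C * A * Cᵀ)).trace
        + (P * (C * A * Cᵀ) * P * A).trace + (P * (C * A * Cᵀ) * P * (C * A * Cᵀ)).trace := by
    simp only [Matrix.mul_add, Matrix.add_mul, trace_add]
    ring
  rw [em, e1, e2, e3, e4] at hm
  rw [ep, e1, e2, e3, e4] at hp
  rcases abs_cases ((A * (P * C) * A * (P * C)ᵀ).trace) with ⟨h, -⟩ | ⟨h, -⟩ <;> rw [h] <;>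
    linarith

/-- **K1.**  If the Rayleigh quotients of `X ↦ ∑ a, A a * X * A a` on positive semidefinite
matrices are at most one, then so are they on all real matrices. -/
theorem cp_bound {ι : Type*} [Fintype ι] (A : ι → Matrix n n ℝ) (hA : ∀ a, (A a)ᵀ = A a)
    (h : ∀ D : Matrix n n ℝ, D.PosSemidef → ∑ a, (A a * D * A a * D).trace ≤ (D * D).trace)
    (X : Matrix n n ℝ) :
    |∑ a, (A a * X * A a * Xᵀ).trace| ≤ (X * Xᵀ).trace := by
  refine le_of_forall_pos_le_add fun ε hε => ?_
  -- a positive definite square root of `X Xᵀ + δ`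
  set N : ℝ := (Fintype.card n : ℝ) with hN
  set δ : ℝ := ε / (N + 1) with hδ
  have hN0 : 0 ≤ N := Nat.cast_nonneg _
  have hδ0 : 0 < δ := div_pos hε (by linarith)
  have hS : (X * Xᵀ).PosSemidef := by
    have := posSemidef_self_mul_conjTranspose X
    rwa [conjTranspose_eq_transpose_of_trivial] at this
  have hSd : (X * Xᵀ + δ • (1 : Matrix n n ℝ)).PosDef :=
    PosDef.posSemidef_add hS (PosDef.one.smul hδ0)
  obtain ⟨P, hP, hPP⟩ : ∃ P : Matrix n n ℝ, P.PosDef ∧ P * P = X * Xᵀ + δ • 1 := by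
    have hsq : CFC.sqrt (X * Xᵀ + δ • (1 : Matrix n n ℝ)) *
        CFC.sqrt (X * Xᵀ + δ • (1 : Matrix n n ℝ)) = X * Xᵀ + δ • 1 :=
      CFC.sqrt_mul_sqrt_self _ hSd.posSemidef.nonneg
    refine ⟨CFC.sqrt (X * Xᵀ + δ • (1 : Matrix n n ℝ)), ?_, hsq⟩
    rw [(CFC.sqrt_nonneg _).posSemidef.posDef_iff_det_ne_zero]
    intro h0
    have h1 := congrArg det hsq
    rw [det_mul, h0, mul_zero] at h1
    exact hSd.det_pos.ne h1
  have hPu : IsUnit P.det := hP.isUnit.map detMonoidHom
  set C : Matrix n n ℝ := P⁻¹ * X with hC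
  have hPt : Pᵀ = P := by
    have := hP.1
    rwa [IsHermitian, conjTranspose_eq_transpose_of_trivial] at this
  have hPit : (P⁻¹)ᵀ = P⁻¹ := by rw [transpose_nonsing_inv, hPt]
  have hX : P * C = X := by rw [hC, ← Matrix.mul_assoc, mul_nonsing_inv _ hPu, Matrix.one_mul]
  have hQ : Cᵀ * P * C = Xᵀ * P⁻¹ * X := by
    rw [hC, transpose_mul, hPit]
    have : Xᵀ * P⁻¹ * P * (P⁻¹ * X) = Xᵀ * (P⁻¹ * P) * P⁻¹ * X := by
      simp only [Matrix.mul_assoc]
    rw [this, nonsing_inv_mul _ hPu, Matrix.mul_one]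
  set Q : Matrix n n ℝ := Cᵀ * P * C with hQd
  have hQs : Q.PosSemidef := by
    have := hP.posSemidef.conjTranspose_mul_mul_same C
    rwa [conjTranspose_eq_transpose_of_trivial] at this
  -- the two Rayleigh quotients
  have h1 : 2 * |∑ a, (A a * X * A a * Xᵀ).trace| ≤ (P * P).trace + (Q * Q).trace := by
    calc 2 * |∑ a, (A a * X * A a * Xᵀ).trace|
        ≤ 2 * ∑ a, |(A a * X * A a * Xᵀ).trace| := by
          gcongr
          exact Finset.abs_sum_le_sum_abs _ _
      _ = ∑ a, 2 * |(A a * (P * C) * A a * (P * C)ᵀ).trace| := by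
          rw [Finset.mul_sum, hX]
      _ ≤ ∑ a, ((A a * P * A a * P).trace + (A a * Q * A a * Q).trace) :=
          Finset.sum_le_sum fun a _ => two_mul_abs_le hP.posSemidef (hA a)
      _ = ∑ a, (A a * P * A a * P).trace + ∑ a, (A a * Q * A a * Q).trace :=
          Finset.sum_add_distrib
      _ ≤ _ := add_le_add (h P hP.posSemidef) (h Q hQs)
  -- traces
  have hS' : X * Xᵀ = P * P - δ • 1 := by rw [hPP]; simp
  have h2 : (P * P).trace = (X * Xᵀ).trace + δ * N := by
    rw [hPP, trace_add, trace_smul, trace_one, smul_eq_mul]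
  have hPS : P⁻¹ * (X * Xᵀ) = P - δ • P⁻¹ := by
    rw [hS', Matrix.mul_sub, ← Matrix.mul_assoc, nonsing_inv_mul _ hPu, Matrix.one_mul,
      Matrix.mul_smul, Matrix.mul_one]
  have h3 : (Q * Q).trace = (P * P).trace - 2 * δ * N + δ ^ 2 * (P⁻¹ * P⁻¹).trace := by
    have e : (Q * Q).trace = (P⁻¹ * (X * Xᵀ) * (P⁻¹ * (X * Xᵀ))).trace := by
      rw [hQ]
      have : Xᵀ * P⁻¹ * X * (Xᵀ * P⁻¹ * X) = Xᵀ * (P⁻¹ * (X * Xᵀ) * P⁻¹ * X) := by
        simp only [Matrix.mul_assoc]
      rw [this, Matrix.trace_mul_comm]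
      simp only [Matrix.mul_assoc]
    rw [e, hPS]
    simp only [Matrix.mul_sub, Matrix.sub_mul, trace_sub, Matrix.mul_smul, Matrix.smul_mul,
      mul_nonsing_inv _ hPu, nonsing_inv_mul _ hPu, trace_smul, trace_one, smul_eq_mul]
    rw [← hN]
    ring
  have h4 : δ * (P⁻¹ * P⁻¹).trace ≤ N := by
    have hps : (P⁻¹ * (X * Xᵀ) * P⁻¹).PosSemidef := by
      have := hS.mul_mul_conjTranspose_same P⁻¹
      rwa [conjTranspose_eq_transpose_of_trivial, hPit] at this
    have ht := hps.trace_nonneg
    rw [hPS, Matrix.sub_mul, mul_nonsing_inv _ hPu, trace_sub, trace_one, Matrix.smul_mul,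
      trace_smul, smul_eq_mul, ← hN] at ht
    linarith
  have h5 : δ ^ 2 * (P⁻¹ * P⁻¹).trace ≤ δ * N := by
    rw [sq, mul_assoc]
    exact mul_le_mul_of_nonneg_left h4 hδ0.le
  have h6 : δ * N ≤ ε := by
    rw [hδ, div_mul_eq_mul_div, div_le_iff₀ (by linarith)]
    nlinarith
  linarith

/-- **K1, weighted form.**  Diagonal weight `s > 0` and Kraus weights `w a ≥ 0`. -/
theorem cp_bound_weighted {ι : Type*} [Fintype ι] (T : ι → Matrix n n ℝ)
    (hT : ∀ a, (T a)ᵀ = T a) (w : ι → ℝ) (hw : ∀ a, 0 ≤ w a) (s : n → ℝ) (hs : ∀ i, 0 < s i)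
    (h : ∀ D : Matrix n n ℝ, D.PosSemidef →
      ∑ a, w a * (T a * D * T a * D).trace ≤ (diagonal s * D * diagonal s * D).trace)
    (X : Matrix n n ℝ) :
    |∑ a, w a * (T a * X * T a * Xᵀ).trace| ≤
      (diagonal s * X * diagonal s * Xᵀ).trace := by
  set r : n → ℝ := fun i => Real.sqrt (s i) with hr
  have hr0 : ∀ i, 0 < r i := fun i => Real.sqrt_pos.2 (hs i)
  have hrr : (diagonal r : Matrix n n ℝ) * diagonal r = diagonal s := by
    rw [diagonal_mul_diagonal]
    congr 1
    funext i
    exact Real.mul_self_sqrt (hs i).le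
  set q : n → ℝ := fun i => (r i)⁻¹ with hq
  have hrq : (diagonal r : Matrix n n ℝ) * diagonal q = 1 := by
    rw [diagonal_mul_diagonal, ← diagonal_one]
    congr 1
    funext i
    exact mul_inv_cancel₀ (hr0 i).ne'
  have hqr : (diagonal q : Matrix n n ℝ) * diagonal r = 1 := by
    rw [diagonal_mul_diagonal, ← diagonal_one]
    congr 1
    funext i
    exact inv_mul_cancel₀ (hr0 i).ne'
  -- conjugation: `U X = R X R`, `B a = √w q T q`
  set B : ι → Matrix n n ℝ := fun a => Real.sqrt (w a) • (diagonal q * T a * diagonal q) with hB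
  have key : ∀ (a : ι) (Y Z : Matrix n n ℝ),
      (B a * (diagonal r * Y * diagonal r) * B a * (diagonal r * Z * diagonal r)).trace =
        w a * (T a * Y * T a * Z).trace := by
    intro a Y Z
    have e1 : B a * (diagonal r * Y * diagonal r) * B a * (diagonal r * Z * diagonal r) =
        w a • (diagonal q * (T a * Y * T a * Z * diagonal r)) := by
      have : B a * (diagonal r * Y * diagonal r) * B a * (diagonal r * Z * diagonal r) =
          (Real.sqrt (w a) * Real.sqrt (w a)) •
            (diagonal q * T a * (diagonal q * diagonal r) * Y * (diagonal r * diagonal q) * T a *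
              (diagonal q * diagonal r) * Z * diagonal r) := by
        simp only [hB, Matrix.smul_mul, Matrix.mul_smul, smul_smul, Matrix.mul_assoc]
      rw [this, hqr, hrq, Real.mul_self_sqrt (hw a)]
      simp only [Matrix.mul_one, Matrix.mul_assoc]
    rw [e1, trace_smul, smul_eq_mul, Matrix.trace_mul_comm]
    congr 1
    have : T a * Y * T a * Z * diagonal r * diagonal q = T a * Y * T a * Z := by
      rw [Matrix.mul_assoc (T a * Y * T a * Z), hrq, Matrix.mul_one]
    rw [this]
  have key2 : ∀ Y Z : Matrix n n ℝ,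
      ((diagonal r * Y * diagonal r) * (diagonal r * Z * diagonal r)).trace =
        (diagonal s * Y * diagonal s * Z).trace := by
    intro Y Z
    have : (diagonal r * Y * diagonal r) * (diagonal r * Z * diagonal r) =
        diagonal r * (Y * (diagonal r * diagonal r) * Z * diagonal r) := by
      simp only [Matrix.mul_assoc]
    rw [this, Matrix.trace_mul_comm, hrr]
    have : Y * diagonal s * Z * diagonal r * diagonal r = Y * (diagonal s * Z * diagonal s) := by
      rw [Matrix.mul_assoc (Y * diagonal s * Z), hrr]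
      simp only [Matrix.mul_assoc]
    rw [this, Matrix.trace_mul_comm]
    have : diagonal s * Z * diagonal s * Y = (diagonal s * Z) * (diagonal s * Y) := by
      simp only [Matrix.mul_assoc]
    rw [this, Matrix.trace_mul_comm]
    simp only [Matrix.mul_assoc]
  have hBs : ∀ a, (B a)ᵀ = B a := by
    intro a
    simp only [hB, transpose_smul, transpose_mul, diagonal_transpose, hT, Matrix.mul_assoc]
  have hmain := cp_bound B hBs (fun D hD => by
    set E : Matrix n n ℝ := diagonal q * D * diagonal q with hE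
    have hEs : E.PosSemidef := by
      have := hD.mul_mul_conjTranspose_same (diagonal q)
      rwa [conjTranspose_eq_transpose_of_trivial, diagonal_transpose] at this
    have hDE : D = diagonal r * E * diagonal r := by
      have : diagonal r * E * diagonal r =
          (diagonal r * diagonal q) * D * (diagonal q * diagonal r) := by
        simp only [hE, Matrix.mul_assoc]
      rw [this, hrq, hqr, Matrix.one_mul, Matrix.mul_one]
    have h1 := h E hEs
    rw [hDE, key2]
    simp only [key]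
    exact h1) (diagonal r * X * diagonal r)
  have ht : (diagonal r * X * diagonal r)ᵀ = diagonal r * Xᵀ * diagonal r := by
    simp only [transpose_mul, diagonal_transpose, Matrix.mul_assoc]
  rw [ht, key2] at hmain
  simpa only [key] using hmain

end Vale.Agent.P254.H543
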